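import Vale.Agent.P199.Main

namespace Vale.Agent.Results.P199.A_full

theorem result :
    ∃ (D : Type) (_ : DivisionRing D), Algebra.IsAlgebraic (Subring.center D) D ∧
      ∃ S : Finset D, Algebra.adjoin (Subring.center D) (S : Set D) = ⊤ ∧
        Subfield.closure ((Subring.center D : Set D) ∪ (S : Set D)) = ⊤ ∧
        ¬Module.Finite (Subring.center D) D := by
  obtain ⟨k, D, _, _, _, h1, h2, h3⟩ := Vale.Agent.P199.kurosh
  obtain ⟨h4, ⟨S, hS⟩, h6⟩ := Vale.Agent.P199.center_step h1 h2 h3
  refine ⟨D, inferInstance, h4, S, hS, ?_, h6⟩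
  rw [eq_top_iff]
  intro x _
  have hx : x ∈ Algebra.adjoin (Subring.center D) (S : Set D) := hS ▸ Algebra.mem_top
  induction hx using Algebra.adjoin_induction with
  | mem x hx => exact Subfield.subset_closure (Or.inr hx)
  | algebraMap r => exact Subfield.subset_closure (Or.inl r.2)
  | add x y _ _ hx hy => exact add_mem (hx trivial) (hy trivial)
  | mul x y _ _ hx hy => exact mul_mem (hx trivial) (hy trivial)

end Vale.Agent.Results.P199.A_full
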